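import Mathlib

/-!
# Reflexivity toolkit (helper2, package P4a for S0166)

Pure Mathlib.  "Reflexive" is phrased exactly as in the Prelude
(`RealBanach.IsReflexive`): `Function.Surjective (NormedSpace.inclusionInDoubleDual ℝ X)`.

* `reflexive_of_equiv` : reflexivity transfers along a continuous linear equivalence.
* `reflexive_of_hilbert` : a real Hilbert space is reflexive.
* `reflexive_of_equiv_hilbert` : a space linearly homeomorphic to a Hilbert space is reflexive.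
* `reflexive_lp_two` : the `ℓ²`-sum `lp G 2` of reflexive spaces is reflexive.
* `reflexive_lp_two_of_equiv_hilbert` : the `ℓ²`-sum of spaces each linearly homeomorphic to a
  Hilbert space is reflexive.
-/

namespace Crest.Agent.Helper2

open scoped ENNReal NNReal
open NormedSpace

section Transfer

variable {X Y : Type*} [NormedAddCommGroup X] [NormedSpace ℝ X]
  [NormedAddCommGroup Y] [NormedSpace ℝ Y]

/-- Reflexivity transfers along a continuous linear equivalence. -/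
theorem reflexive_of_equiv (e : X ≃L[ℝ] Y)
    (hX : Function.Surjective (inclusionInDoubleDual ℝ X)) :
    Function.Surjective (inclusionInDoubleDual ℝ Y) := by
  intro Φ
  let P : StrongDual ℝ X →L[ℝ] StrongDual ℝ Y :=
    (ContinuousLinearMap.compL ℝ Y X ℝ).flip (e.symm : Y →L[ℝ] X)
  obtain ⟨x, hx⟩ := hX (Φ.comp P)
  refine ⟨e x, ?_⟩
  ext g
  have h := congrArg (fun Ψ : StrongDual ℝ (StrongDual ℝ X) => Ψ (g.comp (e : X →L[ℝ] Y))) hx
  simp only [dual_def, ContinuousLinearMap.comp_apply] at h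
  rw [dual_def]
  have hP : P (g.comp (e : X →L[ℝ] Y)) = g := by
    ext y
    simp [P]
  rw [hP] at h
  exact h

end Transfer

section Hilbert

/-- A real Hilbert space is reflexive. -/
theorem reflexive_of_hilbert (H : Type*) [NormedAddCommGroup H] [InnerProductSpace ℝ H]
    [CompleteSpace H] : Function.Surjective (inclusionInDoubleDual ℝ H) := by
  intro Φ
  let T := InnerProductSpace.toDual ℝ H
  let ψ₀ : H →ₗ[ℝ] ℝ :=
    { toFun := fun z => Φ (T z)
      map_add' := fun a b => by simp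
      map_smul' := fun c a => by simp }
  let ψ : StrongDual ℝ H := ψ₀.mkContinuous ‖Φ‖ (fun z => by
    calc ‖ψ₀ z‖ = ‖Φ (T z)‖ := rfl
      _ ≤ ‖Φ‖ * ‖T z‖ := Φ.le_opNorm _
      _ = ‖Φ‖ * ‖z‖ := by rw [LinearIsometryEquiv.norm_map])
  refine ⟨T.symm ψ, ?_⟩
  ext g
  rw [dual_def]
  have h1 : g = T (T.symm g) := (T.apply_symm_apply g).symm
  have h2 : T (T.symm ψ) = ψ := T.apply_symm_apply ψ
  calc g (T.symm ψ) = T (T.symm g) (T.symm ψ) := by rw [← h1]
    _ = inner ℝ (T.symm g) (T.symm ψ) := InnerProductSpace.toDual_apply_apply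
    _ = inner ℝ (T.symm ψ) (T.symm g) := real_inner_comm _ _
    _ = T (T.symm ψ) (T.symm g) := InnerProductSpace.toDual_apply_apply.symm
    _ = ψ (T.symm g) := by rw [h2]
    _ = Φ (T (T.symm g)) := rfl
    _ = Φ g := by rw [← h1]

/-- A real normed space linearly homeomorphic to a Hilbert space is reflexive. -/
theorem reflexive_of_equiv_hilbert {X : Type*} [NormedAddCommGroup X] [NormedSpace ℝ X]
    {H : Type*} [NormedAddCommGroup H] [InnerProductSpace ℝ H] [CompleteSpace H]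
    (e : X ≃L[ℝ] H) : Function.Surjective (inclusionInDoubleDual ℝ X) :=
  reflexive_of_equiv e.symm (reflexive_of_hilbert H)

end Hilbert

section Lp

variable {ι : Type*} {G : ι → Type*} [∀ i, NormedAddCommGroup (G i)] [∀ i, NormedSpace ℝ (G i)]

private lemma toReal_two_pos : 0 < (2 : ℝ≥0∞).toReal := by simp

private lemma le_sq_of_le_mul {A N V : ℝ} (hA : 0 ≤ A)
    (h1 : A ≤ N * V) (hV : V ^ 2 ≤ A) : A ≤ N ^ 2 := by
  rcases hA.eq_or_lt with hA' | hA'
  · rw [← hA']; positivity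
  · have h2 : A * A ≤ N ^ 2 * A := by
      calc A * A = A ^ 2 := (sq A).symm
        _ ≤ (N * V) ^ 2 := pow_le_pow_left₀ hA h1 2
        _ = N ^ 2 * V ^ 2 := mul_pow _ _ _
        _ ≤ N ^ 2 * A := mul_le_mul_of_nonneg_left hV (sq_nonneg N)
    exact le_of_mul_le_mul_right h2 hA'

omit [∀ i, NormedSpace ℝ (G i)] in
/-- Finite sums of squared coordinate norms are bounded by the squared `ℓ²` norm. -/
theorem lp_two_sum_sq_le (f : lp G 2) (s : Finset ι) : ∑ i ∈ s, ‖f i‖ ^ 2 ≤ ‖f‖ ^ 2 := by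
  have h := lp.sum_rpow_le_norm_rpow toReal_two_pos f s
  simp only [ENNReal.toReal_ofNat, Real.rpow_two] at h
  exact h

omit [∀ i, NormedSpace ℝ (G i)] in
/-- The squared norm of a finite sum of `lp.single`s. -/
theorem lp_two_norm_sum_single [DecidableEq ι] (f : ∀ i, G i) (s : Finset ι) :
    ‖∑ i ∈ s, lp.single 2 i (f i)‖ ^ 2 = ∑ i ∈ s, ‖f i‖ ^ 2 := by
  have h := lp.norm_sum_single toReal_two_pos f s
  simp only [ENNReal.toReal_ofNat, Real.rpow_two] at h
  exact h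

omit [∀ i, NormedSpace ℝ (G i)] in
/-- Membership in `ℓ²` from a uniform bound on finite sums of squares. -/
theorem memℓp_two_of_sum_sq_le {C : ℝ} {f : ∀ i, G i}
    (h : ∀ s : Finset ι, ∑ i ∈ s, ‖f i‖ ^ 2 ≤ C) : Memℓp f 2 := by
  refine memℓp_gen' (C := C) (fun s => ?_)
  have := h s
  simp only [ENNReal.toReal_ofNat, Real.rpow_two]
  exact this

/-- A continuous functional on `lp G 2` is the sum of its restrictions to the coordinates. -/
theorem lp_two_dual_hasSum [DecidableEq ι] (ρ : StrongDual ℝ (lp G 2)) (f : lp G 2) :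
    HasSum (fun i => ρ (lp.single 2 i (f i))) (ρ f) :=
  (lp.hasSum_single (by simp) f).map ρ ρ.continuous

theorem lp_two_dual_le [DecidableEq ι] (ρ : StrongDual ℝ (lp G 2)) {C : ℝ} (hC : 0 ≤ C)
    (h : ∀ t : Finset ι, ∑ i ∈ t, ‖ρ.comp (lp.singleContinuousLinearMap ℝ G 2 i)‖ ^ 2 ≤ C ^ 2)
    (f : lp G 2) : ρ f ≤ C * ‖f‖ := by
  refine hasSum_le_of_sum_le (lp_two_dual_hasSum ρ f) (fun t => ?_)
  calc ∑ i ∈ t, ρ (lp.single 2 i (f i))
      ≤ ∑ i ∈ t, ‖ρ.comp (lp.singleContinuousLinearMap ℝ G 2 i)‖ * ‖f i‖ := by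
        refine Finset.sum_le_sum (fun i _ => ?_)
        have h0 := (ρ.comp (lp.singleContinuousLinearMap ℝ G 2 i)).le_opNorm (f i)
        rw [Real.norm_eq_abs] at h0
        exact (le_abs_self _).trans h0
    _ ≤ √(∑ i ∈ t, ‖ρ.comp (lp.singleContinuousLinearMap ℝ G 2 i)‖ ^ 2) *
          √(∑ i ∈ t, ‖f i‖ ^ 2) := Real.sum_mul_le_sqrt_mul_sqrt _ _ _
    _ ≤ C * ‖f‖ := by
        refine mul_le_mul ?_ ?_ (Real.sqrt_nonneg _) hC
        · exact (Real.sqrt_le_sqrt (h t)).trans_eq (Real.sqrt_sq hC)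
        · exact (Real.sqrt_le_sqrt (lp_two_sum_sq_le f t)).trans_eq (Real.sqrt_sq (norm_nonneg _))

/-- Norm bound for a functional on `lp G 2` from `ℓ²`-bounds on its coordinate restrictions. -/
theorem lp_two_dual_norm_le [DecidableEq ι] (ρ : StrongDual ℝ (lp G 2)) {C : ℝ} (hC : 0 ≤ C)
    (h : ∀ t : Finset ι, ∑ i ∈ t, ‖ρ.comp (lp.singleContinuousLinearMap ℝ G 2 i)‖ ^ 2 ≤ C ^ 2) :
    ‖ρ‖ ≤ C := by
  refine ContinuousLinearMap.opNorm_le_bound ρ hC (fun f => ?_)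
  rw [Real.norm_eq_abs, abs_le]
  constructor
  · have h0 := lp_two_dual_le ρ hC h (-f)
    rw [map_neg, norm_neg] at h0
    linarith
  · exact lp_two_dual_le ρ hC h f

/-- If every `G i` is reflexive, the coordinate restrictions of a functional on `lp G 2` are
square-summable with sum at most `‖φ‖²`. -/
theorem lp_two_dual_sum_sq_le [DecidableEq ι]
    (hG : ∀ i, Function.Surjective (inclusionInDoubleDual ℝ (G i)))
    (φ : StrongDual ℝ (lp G 2)) (s : Finset ι) :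
    ∑ i ∈ s, ‖φ.comp (lp.singleContinuousLinearMap ℝ G 2 i)‖ ^ 2 ≤ ‖φ‖ ^ 2 := by
  let c : ∀ i, StrongDual ℝ (G i) := fun i => φ.comp (lp.singleContinuousLinearMap ℝ G 2 i)
  have key : ∀ i, ∃ y : G i, ‖y‖ ≤ 1 ∧ c i y = ‖c i‖ := by
    intro i
    obtain ⟨Ψ, hΨ1, hΨ2⟩ := exists_dual_vector'' ℝ (c i)
    obtain ⟨y, hy⟩ := hG i Ψ
    refine ⟨y, ?_, ?_⟩
    · have h0 := (inclusionInDoubleDualLi (E := G i) ℝ).norm_map y
      rw [← h0]
      change ‖inclusionInDoubleDual ℝ (G i) y‖ ≤ 1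
      rw [hy]
      exact hΨ1
    · have h0 : inclusionInDoubleDual ℝ (G i) y (c i) = Ψ (c i) := by rw [hy]
      rw [dual_def] at h0
      rw [h0]
      simpa using hΨ2
  choose y hy1 hy2 using key
  change ∑ i ∈ s, ‖c i‖ ^ 2 ≤ ‖φ‖ ^ 2
  set B := ∑ i ∈ s, ‖c i‖ ^ 2 with hB
  let v : lp G 2 := ∑ i ∈ s, lp.single 2 i (‖c i‖ • y i)
  have hv : ‖v‖ ^ 2 ≤ B := by
    rw [lp_two_norm_sum_single]
    refine Finset.sum_le_sum (fun i _ => ?_)
    rw [norm_smul, norm_norm]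
    have h0 := mul_le_of_le_one_right (norm_nonneg (c i)) (hy1 i)
    exact pow_le_pow_left₀ (by positivity) h0 2
  have hφv : φ v = B := by
    simp only [v, map_sum]
    refine Finset.sum_congr rfl (fun i _ => ?_)
    have h0 : φ (lp.single 2 i (‖c i‖ • y i)) = c i (‖c i‖ • y i) := rfl
    rw [h0, map_smul, hy2, smul_eq_mul, sq]
  have hB0 : 0 ≤ B := Finset.sum_nonneg (fun i _ => by positivity)
  have h1 : B ≤ ‖φ‖ * ‖v‖ := by
    rw [← hφv]
    have h0 := φ.le_opNorm v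
    rw [Real.norm_eq_abs] at h0
    exact (le_abs_self _).trans h0
  exact le_sq_of_le_mul hB0 h1 hv

/-- **The `ℓ²`-sum of reflexive spaces is reflexive.** -/
theorem reflexive_lp_two (hG : ∀ i, Function.Surjective (inclusionInDoubleDual ℝ (G i))) :
    Function.Surjective (inclusionInDoubleDual ℝ (lp G 2)) := by
  classical
  intro Φ
  -- precomposition with the coordinate projections
  let P : ∀ i, StrongDual ℝ (G i) →L[ℝ] StrongDual ℝ (lp G 2) := fun i =>
    (ContinuousLinearMap.compL ℝ (lp G 2) (G i) ℝ).flip (lp.evalCLM ℝ G 2 i)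
  have hP : ∀ i (ψ : StrongDual ℝ (G i)) (f : lp G 2), P i ψ f = ψ (f i) := fun i ψ f => rfl
  choose x hx using fun i => hG i (Φ.comp (P i))
  have hx' : ∀ i (ψ : StrongDual ℝ (G i)), ψ (x i) = Φ (P i ψ) := by
    intro i ψ
    have h0 : inclusionInDoubleDual ℝ (G i) (x i) ψ = (Φ.comp (P i)) ψ := by rw [hx i]
    rw [dual_def] at h0
    exact h0
  -- Claim A: the coordinates are square summable
  have hA : ∀ s : Finset ι, ∑ i ∈ s, ‖x i‖ ^ 2 ≤ ‖Φ‖ ^ 2 := by
    intro s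
    choose ψ hψ1 hψ2 using fun i => exists_dual_vector'' ℝ (x i)
    have hψ2' : ∀ i, ψ i (x i) = ‖x i‖ := by
      intro i
      simpa using hψ2 i
    let w : StrongDual ℝ (lp G 2) := ∑ i ∈ s, ‖x i‖ • P i (ψ i)
    have hΦw : Φ w = ∑ i ∈ s, ‖x i‖ ^ 2 := by
      simp only [w, map_sum, map_smul, smul_eq_mul]
      refine Finset.sum_congr rfl (fun i _ => ?_)
      rw [← hx', hψ2', sq]
    have hw : ‖w‖ ≤ √(∑ i ∈ s, ‖x i‖ ^ 2) := by
      refine ContinuousLinearMap.opNorm_le_bound w (Real.sqrt_nonneg _) (fun f => ?_)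
      have h0 : w f = ∑ i ∈ s, ‖x i‖ * ψ i (f i) := by
        simp only [w, sum_apply, smul_apply, hP, smul_eq_mul]
      rw [h0]
      calc ‖∑ i ∈ s, ‖x i‖ * ψ i (f i)‖ ≤ ∑ i ∈ s, ‖‖x i‖ * ψ i (f i)‖ := norm_sum_le _ _
        _ ≤ ∑ i ∈ s, ‖x i‖ * ‖f i‖ := by
            refine Finset.sum_le_sum (fun i _ => ?_)
            rw [norm_mul, norm_norm]
            refine mul_le_mul_of_nonneg_left ?_ (norm_nonneg _)
            calc ‖ψ i (f i)‖ ≤ ‖ψ i‖ * ‖f i‖ := (ψ i).le_opNorm _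
              _ ≤ 1 * ‖f i‖ := mul_le_mul_of_nonneg_right (hψ1 i) (norm_nonneg _)
              _ = ‖f i‖ := one_mul _
        _ ≤ √(∑ i ∈ s, ‖x i‖ ^ 2) * √(∑ i ∈ s, ‖f i‖ ^ 2) :=
            Real.sum_mul_le_sqrt_mul_sqrt _ _ _
        _ ≤ √(∑ i ∈ s, ‖x i‖ ^ 2) * ‖f‖ := by
            refine mul_le_mul_of_nonneg_left ?_ (Real.sqrt_nonneg _)
            exact (Real.sqrt_le_sqrt (lp_two_sum_sq_le f s)).trans_eq
              (Real.sqrt_sq (norm_nonneg _))
    have hA0 : 0 ≤ ∑ i ∈ s, ‖x i‖ ^ 2 := Finset.sum_nonneg (fun i _ => by positivity)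
    have h1 : ∑ i ∈ s, ‖x i‖ ^ 2 ≤ ‖Φ‖ * ‖w‖ := by
      rw [← hΦw]
      have h0 := Φ.le_opNorm w
      rw [Real.norm_eq_abs] at h0
      exact (le_abs_self _).trans h0
    have h2 : ∑ i ∈ s, ‖x i‖ ^ 2 ≤ ‖Φ‖ * √(∑ i ∈ s, ‖x i‖ ^ 2) :=
      h1.trans (mul_le_mul_of_nonneg_left hw (norm_nonneg Φ))
    exact le_sq_of_le_mul hA0 h2 (by rw [Real.sq_sqrt hA0])
  -- the candidate preimage
  let xx : lp G 2 := ⟨x, memℓp_two_of_sum_sq_le hA⟩
  refine ⟨xx, ?_⟩
  ext φ
  rw [dual_def]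
  -- coordinates of `φ`
  let c : ∀ i, StrongDual ℝ (G i) := fun i => φ.comp (lp.singleContinuousLinearMap ℝ G 2 i)
  have h1 : HasSum (fun i => c i (x i)) (φ xx) := lp_two_dual_hasSum φ xx
  -- norm convergence of the coordinate expansion of `φ`
  have hconv : HasSum (fun i => P i (c i)) φ := by
    have hsq : Summable (fun i => ‖c i‖ ^ 2) :=
      summable_of_sum_le (fun i => by positivity) (lp_two_dual_sum_sq_le hG φ)
    have hsum := hsq.hasSum
    rw [HasSum, Metric.tendsto_nhds] at hsum ⊢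
    intro ε hε
    refine (hsum (ε ^ 2) (by positivity)).mono ?_
    intro s hs
    rw [dist_eq_norm, norm_sub_rev]
    have hρdef : ∀ i, (φ - ∑ j ∈ s, P j (c j)).comp (lp.singleContinuousLinearMap ℝ G 2 i)
        = if i ∈ s then 0 else c i := by
      intro i
      ext a
      have e0 : (φ - ∑ j ∈ s, P j (c j)) (lp.single 2 i a)
          = c i a - ∑ j ∈ s, c j (lp.single 2 i a j) := by
        simp only [sub_apply, sum_apply, hP]
        rfl
      rw [ContinuousLinearMap.comp_apply, lp.singleContinuousLinearMap_apply, e0]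
      by_cases hi : i ∈ s
      · rw [if_pos hi, Finset.sum_eq_single i
          (fun j _ hji => by rw [lp.single_apply_ne 2 i a hji, map_zero])
          (fun h => absurd hi h), lp.single_apply_self]
        simp
      · rw [if_neg hi, Finset.sum_eq_zero (fun j hj => by
          have hji : j ≠ i := fun h => hi (h ▸ hj)
          rw [lp.single_apply_ne 2 i a hji, map_zero])]
        simp
    have hle : ∑ i ∈ s, ‖c i‖ ^ 2 ≤ ∑' i, ‖c i‖ ^ 2 :=
      hsq.sum_le_tsum s (fun i _ => by positivity)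
    have hbound : ∀ t : Finset ι,
        ∑ i ∈ t, ‖(φ - ∑ j ∈ s, P j (c j)).comp (lp.singleContinuousLinearMap ℝ G 2 i)‖ ^ 2
          ≤ √(∑' i, ‖c i‖ ^ 2 - ∑ i ∈ s, ‖c i‖ ^ 2) ^ 2 := by
      intro t
      have hs_sub : s ⊆ t ∪ s := Finset.subset_union_right
      have e1 := Finset.sum_sdiff (f := fun i =>
        ‖(φ - ∑ j ∈ s, P j (c j)).comp (lp.singleContinuousLinearMap ℝ G 2 i)‖ ^ 2) hs_sub
      have e2 := Finset.sum_sdiff (f := fun i => ‖c i‖ ^ 2) hs_sub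
      have e3 : ∑ i ∈ s,
          ‖(φ - ∑ j ∈ s, P j (c j)).comp (lp.singleContinuousLinearMap ℝ G 2 i)‖ ^ 2 = 0 :=
        Finset.sum_eq_zero (fun i hi => by rw [hρdef, if_pos hi, norm_zero]; norm_num)
      have e4 : ∑ i ∈ (t ∪ s) \ s,
          ‖(φ - ∑ j ∈ s, P j (c j)).comp (lp.singleContinuousLinearMap ℝ G 2 i)‖ ^ 2
            = ∑ i ∈ (t ∪ s) \ s, ‖c i‖ ^ 2 :=
        Finset.sum_congr rfl (fun i hi => by rw [hρdef, if_neg (Finset.mem_sdiff.mp hi).2])
      have e5 : ∑ i ∈ t,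
          ‖(φ - ∑ j ∈ s, P j (c j)).comp (lp.singleContinuousLinearMap ℝ G 2 i)‖ ^ 2
            ≤ ∑ i ∈ t ∪ s,
          ‖(φ - ∑ j ∈ s, P j (c j)).comp (lp.singleContinuousLinearMap ℝ G 2 i)‖ ^ 2 :=
        Finset.sum_le_sum_of_subset_of_nonneg Finset.subset_union_left
          (fun i _ _ => by positivity)
      have e6 : ∑ i ∈ t ∪ s, ‖c i‖ ^ 2 ≤ ∑' i, ‖c i‖ ^ 2 :=
        hsq.sum_le_tsum _ (fun i _ => by positivity)
      rw [Real.sq_sqrt (sub_nonneg.mpr hle)]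
      linarith
    have hρC := lp_two_dual_norm_le (φ - ∑ j ∈ s, P j (c j)) (Real.sqrt_nonneg _) hbound
    have hCε : √(∑' i, ‖c i‖ ^ 2 - ∑ i ∈ s, ‖c i‖ ^ 2) < ε := by
      have h0 : ∑' i, ‖c i‖ ^ 2 - ∑ i ∈ s, ‖c i‖ ^ 2 < ε ^ 2 := by
        rw [Real.dist_eq] at hs
        have h00 := (abs_lt.mp hs).1
        linarith
      calc √(∑' i, ‖c i‖ ^ 2 - ∑ i ∈ s, ‖c i‖ ^ 2) < √(ε ^ 2) :=
            Real.sqrt_lt_sqrt (sub_nonneg.mpr hle) h0
        _ = ε := Real.sqrt_sq hε.le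
    exact lt_of_le_of_lt hρC hCε
  have h2 : HasSum (fun i => Φ (P i (c i))) (Φ φ) := hconv.map Φ Φ.continuous
  have h3 : (fun i => Φ (P i (c i))) = fun i => c i (x i) :=
    funext (fun i => (hx' i (c i)).symm)
  rw [h3] at h2
  exact h1.unique h2

/-- The `ℓ²`-sum of spaces, each linearly homeomorphic to a real Hilbert space, is reflexive. -/
theorem reflexive_lp_two_of_equiv_hilbert {H : ι → Type*} [∀ i, NormedAddCommGroup (H i)]
    [∀ i, InnerProductSpace ℝ (H i)] [∀ i, CompleteSpace (H i)] (e : ∀ i, G i ≃L[ℝ] H i) :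
    Function.Surjective (inclusionInDoubleDual ℝ (lp G 2)) :=
  reflexive_lp_two (fun i => reflexive_of_equiv_hilbert (e i))

end Lp

end Crest.Agent.Helper2
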