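import Mathlib
import Crest.Agent.Row125.Defs
import Crest.Agent.Helper2.Reflexive

/-!
Row 125 wrappers (helper2, package P4a): the reflexivity toolkit of `Helper2/Reflexive.lean`
restated with `Crest.Agent.Row125.Reflexive`, so that dot notation works.
-/

namespace Crest.Agent.Row125

/-- Reflexivity transfers along a continuous linear equivalence. -/
theorem Reflexive.of_equiv {X Y : Type*} [NormedAddCommGroup X] [NormedSpace ℝ X]
    [NormedAddCommGroup Y] [NormedSpace ℝ Y] (e : X ≃L[ℝ] Y) (hX : Reflexive X) :
    Reflexive Y :=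
  Crest.Agent.Helper2.reflexive_of_equiv e hX

/-- A real Hilbert space is reflexive. -/
theorem Reflexive.of_hilbert (H : Type*) [NormedAddCommGroup H] [InnerProductSpace ℝ H]
    [CompleteSpace H] : Reflexive H :=
  Crest.Agent.Helper2.reflexive_of_hilbert H

/-- A real normed space linearly homeomorphic to a Hilbert space is reflexive. -/
theorem Reflexive.of_equiv_hilbert {X : Type*} [NormedAddCommGroup X] [NormedSpace ℝ X]
    {H : Type*} [NormedAddCommGroup H] [InnerProductSpace ℝ H] [CompleteSpace H]
    (e : X ≃L[ℝ] H) : Reflexive X :=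
  Crest.Agent.Helper2.reflexive_of_equiv_hilbert e

/-- The `ℓ²`-sum of reflexive spaces is reflexive. -/
theorem Reflexive.lp_two {ι : Type*} {F : ι → Type*} [∀ i, NormedAddCommGroup (F i)]
    [∀ i, NormedSpace ℝ (F i)] (h : ∀ i, Reflexive (F i)) : Reflexive (lp F 2) :=
  Crest.Agent.Helper2.reflexive_lp_two h

end Crest.Agent.Row125

namespace Crest.Agent.Helper2

open Crest.Agent.Row125

/-- helper5's requested shape (msg 104). -/
theorem reflexive_lp_two_row125 {F : ℕ → Type} [∀ n, NormedAddCommGroup (F n)]
    [∀ n, NormedSpace ℝ (F n)] [∀ n, CompleteSpace (F n)] (h : ∀ n, Reflexive (F n)) :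
    Reflexive (lp F 2) :=
  Reflexive.lp_two h

/-- The S0166 witness space is reflexive as soon as every `G n` is. -/
theorem witnessSpace_reflexive (h : ∀ n, Reflexive (G n)) : Reflexive WitnessSpace :=
  Reflexive.lp_two h

/-- ... and in the Prelude's form. -/
theorem witness_isReflexive (h : ∀ n, Reflexive (G n)) :
    Crest.AnalysisR.RealBanach.IsReflexive witness :=
  Reflexive.lp_two h

end Crest.Agent.Helper2
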