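import Mathlib
import Crest.Agent.Helper9.Area

/-!
# Projections of the standard regular tetrahedron (helper2, row 211 package A5)

`K0 = conv{(±1,0,0), (0,±1,√2)}`.  For every unit vector `v` the orthogonal projection of `K0`
along `v` has `μHE[2]`-area at least `√2`, finite, and equal to `√2` for `v = (1,0,0)`.
-/

namespace Crest.Agent.Helper2.TetraProj

open MeasureTheory
open Crest.Agent.Helper9.Area

/-- the projection along `v` (orthogonal projection onto `v^⊥` when `‖v‖ = 1`) -/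
noncomputable def proj (v : E3) (y : E3) : E3 := y - inner ℝ y v • v

/-- the triple product in coordinates -/
def det3 (a b c : E3) : ℝ :=
  a 0 * (b 1 * c 2 - b 2 * c 1) - a 1 * (b 0 * c 2 - b 2 * c 0) + a 2 * (b 0 * c 1 - b 1 * c 0)

lemma inner_coord (x y : E3) : inner ℝ x y = x 0 * y 0 + x 1 * y 1 + x 2 * y 2 := by
  simp [PiLp.inner_apply, Fin.sum_univ_three]
  ring

lemma norm_sq_coord (x : E3) : ‖x‖ ^ 2 = x 0 ^ 2 + x 1 ^ 2 + x 2 ^ 2 := by
  rw [← real_inner_self_eq_norm_sq, inner_coord]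
  ring

lemma proj_apply (v y : E3) (i : Fin 3) :
    proj v y i = y i - (y 0 * v 0 + y 1 * v 1 + y 2 * v 2) * v i := by
  simp [proj, inner_coord]

lemma proj_sub (v x y : E3) : proj v x - proj v y = proj v (x - y) := by
  simp only [proj, inner_sub_left, sub_smul]
  abel

/-- the projection as a linear map -/
noncomputable def projL (v : E3) : E3 →ₗ[ℝ] E3 where
  toFun := proj v
  map_add' x y := by
    simp only [proj, inner_add_left, add_smul]
    abel
  map_smul' c x := by
    simp only [proj, inner_smul_left, RingHom.id_apply, smul_sub, smul_smul]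
    simp

lemma projL_apply (v y : E3) : projL v y = proj v y := rfl

/-- Gram determinant of projected vectors is the squared triple product. -/
lemma gram_proj (v : E3) (hv : ‖v‖ = 1) (a b : E3) :
    gram (proj v a) (proj v b) = det3 a b v ^ 2 := by
  have hv' : v 0 ^ 2 + v 1 ^ 2 + v 2 ^ 2 = 1 := by
    rw [← norm_sq_coord, hv]; norm_num
  unfold gram
  rw [norm_sq_coord, norm_sq_coord, inner_coord]
  simp only [proj_apply, det3]
  linear_combination
    (((a 0 ^ 2 + a 1 ^ 2 + a 2 ^ 2) * (b 0 * v 0 + b 1 * v 1 + b 2 * v 2) ^ 2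
        + (b 0 ^ 2 + b 1 ^ 2 + b 2 ^ 2) * (a 0 * v 0 + a 1 * v 1 + a 2 * v 2) ^ 2
        - 2 * (a 0 * b 0 + a 1 * b 1 + a 2 * b 2) * (a 0 * v 0 + a 1 * v 1 + a 2 * v 2)
            * (b 0 * v 0 + b 1 * v 1 + b 2 * v 2))
      - ((a 0 ^ 2 + a 1 ^ 2 + a 2 ^ 2) * (b 0 ^ 2 + b 1 ^ 2 + b 2 ^ 2)
        - (a 0 * b 0 + a 1 * b 1 + a 2 * b 2) ^ 2)) * hv'

lemma sqrt_gram_proj (v : E3) (hv : ‖v‖ = 1) (a b : E3) :
    Real.sqrt (gram (proj v a) (proj v b)) = |det3 a b v| := by
  rw [gram_proj v hv, Real.sqrt_sq_eq_abs]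

/-- area of a projected triangle -/
lemma area_proj_triangle (v : E3) (hv : ‖v‖ = 1) (P Q R : E3) :
    μHE[2] (convexHull ℝ {proj v P, proj v Q, proj v R}) =
      ENNReal.ofReal (|det3 (Q - P) (R - P) v| / 2) := by
  rw [area_triangle, proj_sub, proj_sub, sqrt_gram_proj v hv]

section Hull

variable {E : Type*} [AddCommGroup E] [Module ℝ E]

lemma mem_convexHull_three {A B C : E} {a b c : ℝ} (ha : 0 ≤ a) (hb : 0 ≤ b) (hc : 0 ≤ c)
    (h : a + b + c = 1) : a • A + b • B + c • C ∈ convexHull ℝ ({A, B, C} : Set E) := by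
  refine mem_convexHull_of_exists_fintype (R := ℝ) (ι := Fin 3) ![a, b, c] ![A, B, C] ?_ ?_ ?_ ?_
  · intro i
    fin_cases i <;> simpa
  · simp [Fin.sum_univ_three, h]
  · intro i
    fin_cases i <;> simp
  · simp [Fin.sum_univ_three]

lemma convexHull_three_subset (A B C : E) :
    convexHull ℝ ({A, B, C} : Set E) ⊆
      {x | ∃ a b c : ℝ, 0 ≤ a ∧ 0 ≤ b ∧ 0 ≤ c ∧ a + b + c = 1 ∧
        x = a • A + b • B + c • C} := by
  refine convexHull_min ?_ ?_
  · rintro x (rfl | rfl | rfl)
    · exact ⟨1, 0, 0, zero_le_one, le_rfl, le_rfl, by norm_num, by simp⟩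
    · exact ⟨0, 1, 0, le_rfl, zero_le_one, le_rfl, by norm_num, by simp⟩
    · exact ⟨0, 0, 1, le_rfl, le_rfl, zero_le_one, by norm_num, by simp⟩
  · rintro x ⟨a, b, c, ha, hb, hc, h, rfl⟩ y ⟨a', b', c', ha', hb', hc', h', rfl⟩ s t hs ht hst
    refine ⟨s * a + t * a', s * b + t * b', s * c + t * c', by positivity, by positivity,
      by positivity, ?_, ?_⟩
    · linear_combination s * h + t * h' + hst
    · module

lemma convexHull_four_subset (A B C D : E) :
    convexHull ℝ ({A, B, C, D} : Set E) ⊆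
      {x | ∃ a b c d : ℝ, 0 ≤ a ∧ 0 ≤ b ∧ 0 ≤ c ∧ 0 ≤ d ∧ a + b + c + d = 1 ∧
        x = a • A + b • B + c • C + d • D} := by
  refine convexHull_min ?_ ?_
  · rintro x (rfl | rfl | rfl | rfl)
    · exact ⟨1, 0, 0, 0, zero_le_one, le_rfl, le_rfl, le_rfl, by norm_num, by simp⟩
    · exact ⟨0, 1, 0, 0, le_rfl, zero_le_one, le_rfl, le_rfl, by norm_num, by simp⟩
    · exact ⟨0, 0, 1, 0, le_rfl, le_rfl, zero_le_one, le_rfl, by norm_num, by simp⟩
    · exact ⟨0, 0, 0, 1, le_rfl, le_rfl, le_rfl, zero_le_one, by norm_num, by simp⟩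
  · rintro x ⟨a, b, c, d, ha, hb, hc, hd, h, rfl⟩ y ⟨a', b', c', d', ha', hb', hc', hd', h', rfl⟩
      s t hs ht hst
    refine ⟨s * a + t * a', s * b + t * b', s * c + t * c', s * d + t * d', by positivity,
      by positivity, by positivity, by positivity, ?_, ?_⟩
    · linear_combination s * h + t * h' + hst
    · module

/-- Planar Carathéodory for four points with an explicit affine dependency. -/
lemma convexHull_four_subset_union (A B C D : E) (cA cB cC cD : ℝ)
    (hsum : cA + cB + cC + cD = 0) (hdep : cA • A + cB • B + cC • C + cD • D = 0)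
    (hne : ¬ (cA = 0 ∧ cB = 0 ∧ cC = 0 ∧ cD = 0)) :
    convexHull ℝ ({A, B, C, D} : Set E) ⊆
      convexHull ℝ {B, C, D} ∪ convexHull ℝ {A, C, D} ∪ convexHull ℝ {A, B, D} ∪
        convexHull ℝ {A, B, C} := by
  intro x hx
  obtain ⟨a, b, c, d, ha, hb, hc, hd, h, rfl⟩ := convexHull_four_subset A B C D hx
  -- weights and coefficients as functions on `Fin 4`
  let lam : Fin 4 → ℝ := ![a, b, c, d]
  let cc : Fin 4 → ℝ := ![cA, cB, cC, cD]
  have hlam : ∀ i, 0 ≤ lam i := by
    intro i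
    fin_cases i <;> simpa [lam]
  -- some coefficient is positive
  have hpos : ∃ i, 0 < cc i := by
    by_contra hcon
    push Not at hcon
    have h0 := hcon 0
    have h1 := hcon 1
    have h2 := hcon 2
    have h3 := hcon 3
    simp only [cc, Matrix.cons_val_zero, Matrix.cons_val_one] at h0 h1
    have h2' : cC ≤ 0 := h2
    have h3' : cD ≤ 0 := h3
    exact hne ⟨by linarith, by linarith, by linarith, by linarith⟩
  let J : Finset (Fin 4) := Finset.univ.filter (fun i => 0 < cc i)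
  have hJ : J.Nonempty := by
    obtain ⟨i, hi⟩ := hpos
    exact ⟨i, by simp [J, hi]⟩
  obtain ⟨j, hjJ, hjmin⟩ := Finset.exists_min_image J (fun i => lam i / cc i) hJ
  have hcj : 0 < cc j := by
    simpa [J] using hjJ
  set t : ℝ := lam j / cc j with ht
  have ht0 : 0 ≤ t := div_nonneg (hlam j) hcj.le
  have hmu : ∀ i, 0 ≤ lam i - t * cc i := by
    intro i
    rcases lt_or_ge 0 (cc i) with hi | hi
    · have hle := hjmin i (by simp [J, hi])
      have hle' : t ≤ lam i / cc i := hle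
      have := (le_div_iff₀ hi).mp hle'
      linarith
    · have := mul_nonpos_of_nonneg_of_nonpos ht0 hi
      linarith [hlam i]
  have hmuj : lam j - t * cc j = 0 := by
    rw [ht, div_mul_cancel₀ _ hcj.ne']
    ring
  have hm0 := hmu 0
  have hm1 := hmu 1
  have hm2 := hmu 2
  have hm3 := hmu 3
  have e0 : lam 0 = a := rfl
  have e1 : lam 1 = b := rfl
  have e2 : lam 2 = c := rfl
  have e3 : lam 3 = d := rfl
  have f0 : cc 0 = cA := rfl
  have f1 : cc 1 = cB := rfl
  have f2 : cc 2 = cC := rfl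
  have f3 : cc 3 = cD := rfl
  rw [e0, f0] at hm0
  rw [e1, f1] at hm1
  rw [e2, f2] at hm2
  rw [e3, f3] at hm3
  have hrepr : a • A + b • B + c • C + d • D =
      (a - t * cA) • A + (b - t * cB) • B + (c - t * cC) • C + (d - t * cD) • D := by
    have : (a - t * cA) • A + (b - t * cB) • B + (c - t * cC) • C + (d - t * cD) • D
        = (a • A + b • B + c • C + d • D) - t • (cA • A + cB • B + cC • C + cD • D) := by
      module
    rw [this, hdep, smul_zero, sub_zero]
  have hsum' : (a - t * cA) + (b - t * cB) + (c - t * cC) + (d - t * cD) = 1 := by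
    linear_combination h - t * hsum
  rw [hrepr]
  fin_cases j
  · -- coefficient of `A` vanishes
    have hz : a - t * cA = 0 := hmuj
    rw [hz, zero_smul, zero_add]
    refine Or.inl (Or.inl (Or.inl ?_))
    exact mem_convexHull_three hm1 hm2 hm3 (by linarith)
  · have hz : b - t * cB = 0 := hmuj
    rw [hz, zero_smul, add_zero]
    refine Or.inl (Or.inl (Or.inr ?_))
    exact mem_convexHull_three hm0 hm2 hm3 (by linarith)
  · have hz : c - t * cC = 0 := hmuj
    rw [hz, zero_smul, add_zero]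
    refine Or.inl (Or.inr ?_)
    exact mem_convexHull_three hm0 hm1 hm3 (by linarith)
  · have hz : d - t * cD = 0 := hmuj
    rw [hz, zero_smul, add_zero]
    refine Or.inr ?_
    exact mem_convexHull_three hm0 hm1 hm2 (by linarith)

end Hull

lemma measurableSet_convexHull_three (A B C : E3) :
    MeasurableSet (convexHull ℝ ({A, B, C} : Set E3)) := by
  have hfin : ({A, B, C} : Set E3).Finite := by simp
  exact (hfin.isClosed_convexHull ℝ).measurableSet

/-- the affine functional used to separate the two triangles of a quadrilateral -/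
lemma det3_comb (v P₁ P₂ Q : E3) (a b c : ℝ) (h : a + b + c = 1) :
    det3 (P₂ - P₁) ((a • proj v P₁ + b • proj v P₂ + c • proj v Q) - proj v P₁) v =
      c * det3 (P₂ - P₁) (Q - P₁) v := by
  have ha : a = 1 - b - c := by linarith
  subst ha
  simp only [det3, proj_apply, PiLp.sub_apply, PiLp.add_apply, PiLp.smul_apply, smul_eq_mul]
  ring

/-- **Quadrilateral bound**: the hull of two projected segments has area at least half the
absolute triple product of the segments with the direction. -/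
lemma area_proj_quad (v : E3) (hv : ‖v‖ = 1) (P₁ P₂ P₃ P₄ : E3) :
    ENNReal.ofReal (|det3 (P₂ - P₁) (P₄ - P₃) v| / 2) ≤
      μHE[2] (convexHull ℝ {proj v P₁, proj v P₂, proj v P₃, proj v P₄}) := by
  set h₃ := det3 (P₂ - P₁) (P₃ - P₁) v with hh₃
  set h₄ := det3 (P₂ - P₁) (P₄ - P₁) v with hh₄
  have hdiff : det3 (P₂ - P₁) (P₄ - P₃) v = h₄ - h₃ := by
    simp only [hh₃, hh₄, det3, PiLp.sub_apply]
    ring
  have hT₃ : convexHull ℝ {proj v P₁, proj v P₂, proj v P₃} ⊆
      convexHull ℝ {proj v P₁, proj v P₂, proj v P₃, proj v P₄} := by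
    apply convexHull_mono
    intro x hx
    simp only [Set.mem_insert_iff, Set.mem_singleton_iff] at hx ⊢
    tauto
  have hT₄ : convexHull ℝ {proj v P₁, proj v P₂, proj v P₄} ⊆
      convexHull ℝ {proj v P₁, proj v P₂, proj v P₃, proj v P₄} := by
    apply convexHull_mono
    intro x hx
    simp only [Set.mem_insert_iff, Set.mem_singleton_iff] at hx ⊢
    tauto
  have a₃ : μHE[2] (convexHull ℝ {proj v P₁, proj v P₂, proj v P₃}) =
      ENNReal.ofReal (|h₃| / 2) := area_proj_triangle v hv P₁ P₂ P₃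
  have a₄ : μHE[2] (convexHull ℝ {proj v P₁, proj v P₂, proj v P₄}) =
      ENNReal.ofReal (|h₄| / 2) := area_proj_triangle v hv P₁ P₂ P₄
  rw [hdiff]
  rcases le_or_gt 0 (h₃ * h₄) with hs | hs
  · -- same side
    have hmax : |h₄ - h₃| ≤ max |h₃| |h₄| := by
      rcases le_total 0 h₃ with p | p <;> rcases le_total 0 h₄ with q | q
      · rw [abs_of_nonneg p, abs_of_nonneg q, abs_le]
        constructor
        · have := le_max_left h₃ h₄
          linarith
        · have := le_max_right h₃ h₄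
          linarith
      · have hz : h₃ * h₄ = 0 := le_antisymm (mul_nonpos_of_nonneg_of_nonpos p q) hs
        rcases mul_eq_zero.mp hz with hz | hz
        · rw [hz]
          simp
        · rw [hz]
          simp
      · have hz : h₃ * h₄ = 0 := le_antisymm (mul_nonpos_of_nonpos_of_nonneg p q) hs
        rcases mul_eq_zero.mp hz with hz | hz
        · rw [hz]
          simp
        · rw [hz]
          simp
      · rw [abs_of_nonpos p, abs_of_nonpos q, abs_le]
        constructor
        · have := le_max_right (-h₃) (-h₄)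
          linarith
        · have := le_max_left (-h₃) (-h₄)
          linarith
    rcases le_total |h₃| |h₄| with hle | hle
    · calc ENNReal.ofReal (|h₄ - h₃| / 2) ≤ ENNReal.ofReal (|h₄| / 2) := by
            apply ENNReal.ofReal_le_ofReal
            have := max_eq_right hle
            linarith
        _ = μHE[2] (convexHull ℝ {proj v P₁, proj v P₂, proj v P₄}) := a₄.symm
        _ ≤ _ := measure_mono hT₄
    · calc ENNReal.ofReal (|h₄ - h₃| / 2) ≤ ENNReal.ofReal (|h₃| / 2) := by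
            apply ENNReal.ofReal_le_ofReal
            have := max_eq_left hle
            linarith
        _ = μHE[2] (convexHull ℝ {proj v P₁, proj v P₂, proj v P₃}) := a₃.symm
        _ ≤ _ := measure_mono hT₃
  · -- opposite sides: the two triangles only share a segment
    have hint : convexHull ℝ {proj v P₁, proj v P₂, proj v P₃} ∩
        convexHull ℝ {proj v P₁, proj v P₂, proj v P₄} ⊆ segment ℝ (proj v P₁) (proj v P₂) := by
      rintro x ⟨hx₃, hx₄⟩
      obtain ⟨a, b, c, ha, hb, hc, habc, rfl⟩ := convexHull_three_subset _ _ _ hx₃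
      obtain ⟨a', b', c', ha', hb', hc', habc', hx'⟩ := convexHull_three_subset _ _ _ hx₄
      have e₁ := det3_comb v P₁ P₂ P₃ a b c habc
      have e₂ := det3_comb v P₁ P₂ P₄ a' b' c' habc'
      rw [← hx'] at e₂
      rw [e₁] at e₂
      -- c * h₃ = c' * h₄
      have hc0 : c = 0 := by
        by_contra hcne
        have hcpos : 0 < c := lt_of_le_of_ne hc (Ne.symm hcne)
        have h1 : c * h₃ * h₃ = c' * (h₃ * h₄) := by
          have : c * h₃ = c' * h₄ := e₂
          calc c * h₃ * h₃ = (c' * h₄) * h₃ := by rw [this]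
            _ = c' * (h₃ * h₄) := by ring
        have h2 : c' * (h₃ * h₄) ≤ 0 := mul_nonpos_of_nonneg_of_nonpos hc' hs.le
        have h3 : h₃ ≠ 0 := by
          rintro h0
          rw [h0, zero_mul] at hs
          exact lt_irrefl _ hs
        have h4 : 0 < c * h₃ * h₃ := by
          have : 0 < h₃ * h₃ := mul_self_pos.mpr h3
          nlinarith
        linarith
      subst hc0
      refine ⟨a, b, ha, hb, by linarith, ?_⟩
      simp
    have hnull : μHE[2] (convexHull ℝ {proj v P₁, proj v P₂, proj v P₃} ∩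
        convexHull ℝ {proj v P₁, proj v P₂, proj v P₄}) = 0 :=
      measure_mono_null hint (area_segment _ _)
    have hunion := measure_union_add_inter (μ := μHE[2])
      (convexHull ℝ {proj v P₁, proj v P₂, proj v P₃})
      (measurableSet_convexHull_three (proj v P₁) (proj v P₂) (proj v P₄))
    rw [hnull, add_zero] at hunion
    have habs : |h₄ - h₃| = |h₃| + |h₄| := by
      rcases lt_or_gt_of_ne (show h₃ ≠ 0 by
        rintro h0
        rw [h0, zero_mul] at hs
        exact lt_irrefl _ hs) with p | p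
      · have q : 0 < h₄ := by
          by_contra hq
          push Not at hq
          have := mul_nonneg_of_nonpos_of_nonpos p.le hq
          linarith
        rw [abs_of_neg p, abs_of_pos q, abs_of_pos (by linarith)]
        ring
      · have q : h₄ < 0 := by
          by_contra hq
          push Not at hq
          have := mul_nonneg p.le hq
          linarith
        rw [abs_of_pos p, abs_of_neg q, abs_of_neg (by linarith)]
        ring
    calc ENNReal.ofReal (|h₄ - h₃| / 2) = ENNReal.ofReal (|h₃| / 2 + |h₄| / 2) := by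
          rw [habs]
          congr 1
          ring
      _ = ENNReal.ofReal (|h₃| / 2) + ENNReal.ofReal (|h₄| / 2) :=
          ENNReal.ofReal_add (by positivity) (by positivity)
      _ = μHE[2] (convexHull ℝ {proj v P₁, proj v P₂, proj v P₃}) +
            μHE[2] (convexHull ℝ {proj v P₁, proj v P₂, proj v P₄}) := by rw [a₃, a₄]
      _ = μHE[2] (convexHull ℝ {proj v P₁, proj v P₂, proj v P₃} ∪
            convexHull ℝ {proj v P₁, proj v P₂, proj v P₄}) := hunion.symm
      _ ≤ _ := measure_mono (Set.union_subset hT₃ hT₄)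

/-! ### The standard tetrahedron -/

/-- vertices of the standard regular tetrahedron -/
noncomputable def V1 : E3 := !₂[1, 0, 0]
noncomputable def V2 : E3 := !₂[-1, 0, 0]
noncomputable def V3 : E3 := !₂[0, 1, Real.sqrt 2]
noncomputable def V4 : E3 := !₂[0, -1, Real.sqrt 2]

/-- the standard regular tetrahedron `conv{(±1,0,0), (0,±1,√2)}` -/
noncomputable def K0 : Set E3 :=
  convexHull ℝ {!₂[1, 0, 0], !₂[-1, 0, 0], !₂[0, 1, Real.sqrt 2], !₂[0, -1, Real.sqrt 2]}

lemma K0_eq : K0 = convexHull ℝ {V1, V2, V3, V4} := rfl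

@[simp] lemma V1_0 : V1 0 = 1 := by simp [V1]
@[simp] lemma V1_1 : V1 1 = 0 := by simp [V1]
@[simp] lemma V1_2 : V1 2 = 0 := by simp [V1]
@[simp] lemma V2_0 : V2 0 = -1 := by simp [V2]
@[simp] lemma V2_1 : V2 1 = 0 := by simp [V2]
@[simp] lemma V2_2 : V2 2 = 0 := by simp [V2]
@[simp] lemma V3_0 : V3 0 = 0 := by simp [V3]
@[simp] lemma V3_1 : V3 1 = 1 := by simp [V3]
@[simp] lemma V3_2 : V3 2 = Real.sqrt 2 := by simp [V3]
@[simp] lemma V4_0 : V4 0 = 0 := by simp [V4]
@[simp] lemma V4_1 : V4 1 = -1 := by simp [V4]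
@[simp] lemma V4_2 : V4 2 = Real.sqrt 2 := by simp [V4]

lemma sqrt_two_sq : Real.sqrt 2 ^ 2 = 2 := Real.sq_sqrt (by norm_num)

/-- The image of `K0` under the projection along `v` is the hull of the projected vertices. -/
lemma image_K0 (v : E3) : (fun y : E3 => y - inner ℝ y v • v) '' K0 =
    convexHull ℝ {proj v V1, proj v V2, proj v V3, proj v V4} := by
  have h : (fun y : E3 => y - inner ℝ y v • v) = projL v := rfl
  rw [h, K0_eq, LinearMap.image_convexHull]
  congr 1
  simp only [Set.image_insert_eq, Set.image_singleton, projL_apply]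

lemma det_pair1 (v : E3) : det3 (V2 - V1) (V4 - V3) v = 4 * v 2 := by
  simp only [det3, PiLp.sub_apply, V1_0, V1_1, V1_2, V2_0, V2_1, V2_2, V3_0, V3_1, V3_2, V4_0,
    V4_1, V4_2]
  ring

lemma det_pair2 (v : E3) : det3 (V3 - V1) (V4 - V2) v = 2 * (Real.sqrt 2 * (v 0 + v 1)) := by
  simp only [det3, PiLp.sub_apply, V1_0, V1_1, V1_2, V2_0, V2_1, V2_2, V3_0, V3_1, V3_2, V4_0,
    V4_1, V4_2]
  ring

lemma det_pair3 (v : E3) : det3 (V4 - V1) (V3 - V2) v = 2 * (Real.sqrt 2 * (v 1 - v 0)) := by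
  simp only [det3, PiLp.sub_apply, V1_0, V1_1, V1_2, V2_0, V2_1, V2_2, V3_0, V3_1, V3_2, V4_0,
    V4_1, V4_2]
  ring

lemma det_face123 (v : E3) : det3 (V2 - V1) (V3 - V1) v = 2 * (Real.sqrt 2 * v 1 - v 2) := by
  simp only [det3, PiLp.sub_apply, V1_0, V1_1, V1_2, V2_0, V2_1, V2_2, V3_0, V3_1, V3_2]
  ring

lemma det_face124 (v : E3) : det3 (V2 - V1) (V4 - V1) v = 2 * (Real.sqrt 2 * v 1 + v 2) := by
  simp only [det3, PiLp.sub_apply, V1_0, V1_1, V1_2, V2_0, V2_1, V2_2, V4_0, V4_1, V4_2]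
  ring

lemma det_face341 (v : E3) : det3 (V4 - V3) (V1 - V3) v = 2 * (Real.sqrt 2 * v 0 + v 2) := by
  simp only [det3, PiLp.sub_apply, V1_0, V1_1, V1_2, V3_0, V3_1, V3_2, V4_0, V4_1, V4_2]
  ring

lemma det_face342 (v : E3) : det3 (V4 - V3) (V2 - V3) v = 2 * (Real.sqrt 2 * v 0 - v 2) := by
  simp only [det3, PiLp.sub_apply, V2_0, V2_1, V2_2, V3_0, V3_1, V3_2, V4_0, V4_1, V4_2]
  ring

private lemma abs_two_mul_div (x : ℝ) : |2 * x| / 2 = |x| := by
  rw [abs_mul, abs_of_pos (by norm_num : (0:ℝ) < 2)]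
  ring

private lemma hull_mono_of {S T : Set E3} (h : S ⊆ T) :
    μHE[2] (convexHull ℝ S) ≤ μHE[2] (convexHull ℝ T) :=
  measure_mono (convexHull_mono h)

section Bounds

variable (v : E3) (hv : ‖v‖ = 1)
include hv

lemma lb_pair1 : ENNReal.ofReal (2 * |v 2|) ≤
    μHE[2] (convexHull ℝ {proj v V1, proj v V2, proj v V3, proj v V4}) := by
  have h := area_proj_quad v hv V1 V2 V3 V4
  rw [det_pair1, show (4 : ℝ) * v 2 = 2 * (2 * v 2) by ring, abs_two_mul_div, abs_mul,
    abs_of_pos (by norm_num : (0:ℝ) < 2)] at h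
  exact h

lemma lb_pair2 : ENNReal.ofReal (Real.sqrt 2 * |v 0 + v 1|) ≤
    μHE[2] (convexHull ℝ {proj v V1, proj v V2, proj v V3, proj v V4}) := by
  have h := area_proj_quad v hv V1 V3 V2 V4
  rw [det_pair2, abs_two_mul_div, abs_mul, abs_of_pos (by positivity : (0:ℝ) < Real.sqrt 2)] at h
  refine h.trans (hull_mono_of ?_)
  intro x hx
  simp only [Set.mem_insert_iff, Set.mem_singleton_iff] at hx ⊢
  tauto

lemma lb_pair3 : ENNReal.ofReal (Real.sqrt 2 * |v 1 - v 0|) ≤
    μHE[2] (convexHull ℝ {proj v V1, proj v V2, proj v V3, proj v V4}) := by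
  have h := area_proj_quad v hv V1 V4 V2 V3
  rw [det_pair3, abs_two_mul_div, abs_mul, abs_of_pos (by positivity : (0:ℝ) < Real.sqrt 2)] at h
  refine h.trans (hull_mono_of ?_)
  intro x hx
  simp only [Set.mem_insert_iff, Set.mem_singleton_iff] at hx ⊢
  tauto

lemma lb_face123 : ENNReal.ofReal |Real.sqrt 2 * v 1 - v 2| ≤
    μHE[2] (convexHull ℝ {proj v V1, proj v V2, proj v V3, proj v V4}) := by
  have h := area_proj_triangle v hv V1 V2 V3
  rw [det_face123, abs_two_mul_div] at h
  rw [← h]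
  refine hull_mono_of ?_
  intro x hx
  simp only [Set.mem_insert_iff, Set.mem_singleton_iff] at hx ⊢
  tauto

lemma lb_face124 : ENNReal.ofReal |Real.sqrt 2 * v 1 + v 2| ≤
    μHE[2] (convexHull ℝ {proj v V1, proj v V2, proj v V3, proj v V4}) := by
  have h := area_proj_triangle v hv V1 V2 V4
  rw [det_face124, abs_two_mul_div] at h
  rw [← h]
  refine hull_mono_of ?_
  intro x hx
  simp only [Set.mem_insert_iff, Set.mem_singleton_iff] at hx ⊢
  tauto

lemma lb_face341 : ENNReal.ofReal |Real.sqrt 2 * v 0 + v 2| ≤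
    μHE[2] (convexHull ℝ {proj v V1, proj v V2, proj v V3, proj v V4}) := by
  have h := area_proj_triangle v hv V3 V4 V1
  rw [det_face341, abs_two_mul_div] at h
  rw [← h]
  refine hull_mono_of ?_
  intro x hx
  simp only [Set.mem_insert_iff, Set.mem_singleton_iff] at hx ⊢
  tauto

lemma lb_face342 : ENNReal.ofReal |Real.sqrt 2 * v 0 - v 2| ≤
    μHE[2] (convexHull ℝ {proj v V1, proj v V2, proj v V3, proj v V4}) := by
  have h := area_proj_triangle v hv V3 V4 V2
  rw [det_face342, abs_two_mul_div] at h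
  rw [← h]
  refine hull_mono_of ?_
  intro x hx
  simp only [Set.mem_insert_iff, Set.mem_singleton_iff] at hx ⊢
  tauto

end Bounds

/-- the elementary inequality behind the minimal projection -/
lemma key_ineq (a b c : ℝ) (h : a ^ 2 + b ^ 2 + c ^ 2 = 1) :
    Real.sqrt 2 ≤ 2 * |c| ∨ Real.sqrt 2 ≤ 2 * |a| ∨ Real.sqrt 2 ≤ 2 * |b| ∨
      Real.sqrt 2 ≤ |a - b - c| ∨ Real.sqrt 2 ≤ |a - b + c| ∨ Real.sqrt 2 ≤ |a + b + c| ∨
      Real.sqrt 2 ≤ |a + b - c| := by
  by_contra hcon
  push Not at hcon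
  obtain ⟨h1, h2, h3, h4, h5, h6, h7⟩ := hcon
  have hs : (0:ℝ) < Real.sqrt 2 := by positivity
  have hs2 : Real.sqrt 2 * Real.sqrt 2 = 2 := Real.mul_self_sqrt (by norm_num)
  have hsum : |a| + |b| + |c| < Real.sqrt 2 := by
    rcases abs_cases a with ⟨ha, _⟩ | ⟨ha, _⟩ <;> rcases abs_cases b with ⟨hb, _⟩ | ⟨hb, _⟩ <;>
      rcases abs_cases c with ⟨hc, _⟩ | ⟨hc, _⟩ <;> rw [ha, hb, hc] <;>
      linarith [le_abs_self (a + b + c), neg_abs_le (a + b + c), le_abs_self (a + b - c),
        neg_abs_le (a + b - c), le_abs_self (a - b + c), neg_abs_le (a - b + c),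
        le_abs_self (a - b - c), neg_abs_le (a - b - c)]
  have ha2 : a ^ 2 ≤ Real.sqrt 2 / 2 * |a| := by
    rw [← sq_abs]
    nlinarith [abs_nonneg a]
  have hb2 : b ^ 2 ≤ Real.sqrt 2 / 2 * |b| := by
    rw [← sq_abs]
    nlinarith [abs_nonneg b]
  have hc2 : c ^ 2 ≤ Real.sqrt 2 / 2 * |c| := by
    rw [← sq_abs]
    nlinarith [abs_nonneg c]
  nlinarith

lemma key_ineq' (x y z : ℝ) (h : x ^ 2 + y ^ 2 + z ^ 2 = 1) :
    Real.sqrt 2 ≤ 2 * |z| ∨ Real.sqrt 2 ≤ Real.sqrt 2 * |x + y| ∨
      Real.sqrt 2 ≤ Real.sqrt 2 * |y - x| ∨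
      Real.sqrt 2 ≤ |Real.sqrt 2 * y - z| ∨ Real.sqrt 2 ≤ |Real.sqrt 2 * y + z| ∨
      Real.sqrt 2 ≤ |Real.sqrt 2 * x + z| ∨ Real.sqrt 2 ≤ |Real.sqrt 2 * x - z| := by
  have hs : (0:ℝ) < Real.sqrt 2 := by positivity
  have hs2 : Real.sqrt 2 * Real.sqrt 2 = 2 := Real.mul_self_sqrt (by norm_num)
  have hsne : Real.sqrt 2 ≠ 0 := hs.ne'
  set a := (x + y) / Real.sqrt 2 with ha
  set b := (x - y) / Real.sqrt 2 with hb
  have habc : a ^ 2 + b ^ 2 + z ^ 2 = 1 := by
    rw [ha, hb, div_pow, div_pow, sqrt_two_sq]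
    linarith
  have e1 : 2 * |a| = Real.sqrt 2 * |x + y| := by
    rw [ha, abs_div, abs_of_pos hs]
    field_simp
    rw [sqrt_two_sq]
    ring
  have e2 : 2 * |b| = Real.sqrt 2 * |y - x| := by
    rw [hb, abs_div, abs_of_pos hs, abs_sub_comm x y]
    field_simp
    rw [sqrt_two_sq]
    ring
  have e3 : a - b = Real.sqrt 2 * y := by
    rw [ha, hb]
    field_simp
    rw [sqrt_two_sq]
    ring
  have e4 : a + b = Real.sqrt 2 * x := by
    rw [ha, hb]
    field_simp
    rw [sqrt_two_sq]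
    ring
  rcases key_ineq a b z habc with h' | h' | h' | h' | h' | h' | h'
  · exact Or.inl h'
  · exact Or.inr (Or.inl (e1 ▸ h'))
  · exact Or.inr (Or.inr (Or.inl (e2 ▸ h')))
  · refine Or.inr (Or.inr (Or.inr (Or.inl ?_)))
    rwa [e3] at h'
  · refine Or.inr (Or.inr (Or.inr (Or.inr (Or.inl ?_))))
    rwa [e3] at h'
  · refine Or.inr (Or.inr (Or.inr (Or.inr (Or.inr (Or.inl ?_)))))
    rwa [e4] at h'
  · refine Or.inr (Or.inr (Or.inr (Or.inr (Or.inr (Or.inr ?_)))))
    rwa [e4] at h'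

/-- **Every orthogonal projection of the standard regular tetrahedron has area `≥ √2`.** -/
theorem proj_area_ge (v : E3) (hv : ‖v‖ = 1) :
    ENNReal.ofReal (Real.sqrt 2) ≤ μHE[2] ((fun y : E3 => y - inner ℝ y v • v) '' K0) := by
  rw [image_K0]
  have hv' : v 0 ^ 2 + v 1 ^ 2 + v 2 ^ 2 = 1 := by
    rw [← norm_sq_coord, hv]
    norm_num
  rcases key_ineq' (v 0) (v 1) (v 2) hv' with h | h | h | h | h | h | h
  · exact (ENNReal.ofReal_le_ofReal h).trans (lb_pair1 v hv)
  · exact (ENNReal.ofReal_le_ofReal h).trans (lb_pair2 v hv)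
  · exact (ENNReal.ofReal_le_ofReal h).trans (lb_pair3 v hv)
  · exact (ENNReal.ofReal_le_ofReal h).trans (lb_face123 v hv)
  · exact (ENNReal.ofReal_le_ofReal h).trans (lb_face124 v hv)
  · exact (ENNReal.ofReal_le_ofReal h).trans (lb_face341 v hv)
  · exact (ENNReal.ofReal_le_ofReal h).trans (lb_face342 v hv)

/-- **The projection along the edge direction `(1,0,0)` has area exactly `√2`.** -/
theorem proj_area_eq : ∃ v : E3, ‖v‖ = 1 ∧
    μHE[2] ((fun y : E3 => y - inner ℝ y v • v) '' K0) = ENNReal.ofReal (Real.sqrt 2) := by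
  have hV1 : ‖V1‖ = 1 := by
    have h : ‖V1‖ ^ 2 = 1 := by
      rw [norm_sq_coord]
      simp
    have h0 : 0 ≤ ‖V1‖ := norm_nonneg _
    nlinarith
  refine ⟨V1, hV1, ?_⟩
  rw [image_K0]
  have p1 : proj V1 V1 = 0 := by
    ext i
    fin_cases i <;> simp [proj_apply]
  have p2 : proj V1 V2 = 0 := by
    ext i
    fin_cases i <;> simp [proj_apply]
  have p3 : proj V1 V3 = V3 := by
    ext i
    fin_cases i <;> simp [proj_apply]
  have p4 : proj V1 V4 = V4 := by
    ext i
    fin_cases i <;> simp [proj_apply]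
  rw [p1, p2, p3, p4, Set.insert_eq_of_mem (Set.mem_insert _ _), area_triangle]
  congr 1
  have hg : gram (V3 - 0) (V4 - 0) = 8 := by
    unfold gram
    rw [sub_zero, sub_zero, norm_sq_coord, norm_sq_coord, inner_coord]
    simp only [V3_0, V3_1, V3_2, V4_0, V4_1, V4_2]
    linear_combination (4 : ℝ) * sqrt_two_sq
  rw [hg, show (8 : ℝ) = 2 ^ 2 * 2 by norm_num, Real.sqrt_mul (by positivity),
    Real.sqrt_sq (by norm_num)]
  ring

/-- **Every orthogonal projection of the standard regular tetrahedron has finite area.** -/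
theorem proj_area_lt_top (v : E3) (hv : ‖v‖ = 1) :
    μHE[2] ((fun y : E3 => y - inner ℝ y v • v) '' K0) < ⊤ := by
  rw [image_K0]
  have hv' : v 0 ^ 2 + v 1 ^ 2 + v 2 ^ 2 = 1 := by
    rw [← norm_sq_coord, hv]
    norm_num
  have hs : (0:ℝ) < Real.sqrt 2 := by positivity
  have hs2 := sqrt_two_sq
  have hsub := convexHull_four_subset_union (proj v V1) (proj v V2) (proj v V3) (proj v V4)
    ((v 0 - v 2 * Real.sqrt 2 / 2) / 2) ((-v 0 - v 2 * Real.sqrt 2 / 2) / 2)
    ((v 1 + v 2 * Real.sqrt 2 / 2) / 2) ((-v 1 + v 2 * Real.sqrt 2 / 2) / 2)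
    (by ring)
    (by
      ext i
      fin_cases i
      · simp only [Fin.zero_eta, PiLp.add_apply, PiLp.smul_apply, smul_eq_mul, proj_apply, V1_0,
          V1_1, V1_2, V2_0, V2_1, V2_2, V3_0, V3_1, V3_2, V4_0, V4_1, V4_2, PiLp.zero_apply]
        linear_combination (-(v 0)) * hv' + (-(v 2) ^ 2 * v 0 / 2) * hs2
      · simp only [Fin.mk_one, PiLp.add_apply, PiLp.smul_apply, smul_eq_mul, proj_apply, V1_0,
          V1_1, V1_2, V2_0, V2_1, V2_2, V3_0, V3_1, V3_2, V4_0, V4_1, V4_2, PiLp.zero_apply]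
        linear_combination (-(v 1)) * hv' + (-(v 2) ^ 2 * v 1 / 2) * hs2
      · simp only [Fin.reduceFinMk, PiLp.add_apply, PiLp.smul_apply, smul_eq_mul, proj_apply,
          V1_0, V1_1, V1_2, V2_0, V2_1, V2_2, V3_0, V3_1, V3_2, V4_0, V4_1, V4_2,
          PiLp.zero_apply]
        linear_combination (-(v 2)) * hv' + (v 2 / 2 - (v 2) ^ 2 * v 2 / 2) * hs2)
    (by
      rintro ⟨h1, h2, h3, h4⟩
      have hv0 : v 0 = 0 := by linarith
      have hv1 : v 1 = 0 := by linarith
      have hv2s : v 2 * Real.sqrt 2 = 0 := by linarith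
      have hv2 : v 2 = 0 := by
        rcases mul_eq_zero.mp hv2s with h | h
        · exact h
        · exact absurd h hs.ne'
      rw [hv0, hv1, hv2] at hv'
      norm_num at hv')
  refine lt_of_le_of_lt (measure_mono hsub) ?_
  refine lt_of_le_of_lt (measure_union_le _ _) (ENNReal.add_lt_top.mpr ⟨?_, ?_⟩)
  · refine lt_of_le_of_lt (measure_union_le _ _) (ENNReal.add_lt_top.mpr ⟨?_, ?_⟩)
    · refine lt_of_le_of_lt (measure_union_le _ _) (ENNReal.add_lt_top.mpr ⟨?_, ?_⟩)
      · rw [area_triangle]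
        exact ENNReal.ofReal_lt_top
      · rw [area_triangle]
        exact ENNReal.ofReal_lt_top
    · rw [area_triangle]
      exact ENNReal.ofReal_lt_top
  · rw [area_triangle]
    exact ENNReal.ofReal_lt_top

end Crest.Agent.Helper2.TetraProj
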